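import Mathlib

/-!
# S0453, WP-D3b: the three-row table inequality (L3) from the colouring model (helper56)

`Tab r c` = 0/1 tables with three rows (rows are `Finset C`), row sums `r`, column sums `c`.
`L3_tables`: for `g i` a function of row `i`, each with zero sum over `Tab r c`,
`∑ (g 0 + g 1 + g 2)² ≤ 2 ∑ (g 0² + g 1² + g 2²)`.

Input: the same inequality for the colouring model (`L3Colouring`, PROOF.md section 3), in the
common shape of the WP-D1 files: states are pairs of colourings `σ₁ : K1 → Fin 3`, `σ₂ : K2 → Fin 3`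
with `|σ₁⁻¹ i| - |σ₂⁻¹ i| = dl i`, party `i` sees `(σ₁⁻¹ i, σ₂⁻¹ i)`.

Dictionary: `K1` = columns of sum 1 (colour = the row holding the 1), `K2` = columns of sum 2
(colour = the row holding the 0), columns of sum 0 and 3 are frozen, a column of sum `> 3` makes
`Tab` empty.
-/

set_option autoImplicit false

namespace Crest.Agent.Helper56.SW

open Finset

universe u

section Colouring

variable {K1 K2 : Type*} [Fintype K1] [DecidableEq K1] [Fintype K2] [DecidableEq K2]

/-- The items of colour `i`. -/
def ccls {K : Type*} [Fintype K] (s : K → Fin 3) (i : Fin 3) : Finset K :=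
  univ.filter (fun a => s a = i)

/-- States of the colouring model. -/
def cstates (dl : Fin 3 → ℤ) : Finset ((K1 → Fin 3) × (K2 → Fin 3)) :=
  univ.filter (fun s => ∀ i, ((ccls s.1 i).card : ℤ) - ((ccls s.2 i).card : ℤ) = dl i)

/-- What party `i` sees. -/
def cview (i : Fin 3) (s : (K1 → Fin 3) × (K2 → Fin 3)) : Finset K1 × Finset K2 :=
  (ccls s.1 i, ccls s.2 i)

theorem mem_ccls {K : Type*} [Fintype K] (s : K → Fin 3) (i : Fin 3) (a : K) :
    a ∈ ccls s i ↔ s a = i := by
  simp [ccls]

end Colouring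

/-- The three-party inequality (L3) for the colouring model, as a proposition. -/
def L3Colouring : Prop :=
  ∀ (K1 K2 : Type u) [Fintype K1] [DecidableEq K1] [Fintype K2] [DecidableEq K2]
    (dl : Fin 3 → ℤ) (g : Fin 3 → Finset K1 × Finset K2 → ℝ),
    (∀ i, ∑ s ∈ cstates (K1 := K1) (K2 := K2) dl, g i (cview i s) = 0) →
    ∑ s ∈ cstates (K1 := K1) (K2 := K2) dl, (∑ i, g i (cview i s)) ^ 2
      ≤ 2 * ∑ s ∈ cstates (K1 := K1) (K2 := K2) dl, ∑ i, (g i (cview i s)) ^ 2

section Tables

variable {C : Type*} [Fintype C] [DecidableEq C]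

/-- Three-row 0/1 tables with row sums `r` and column sums `c`. -/
def Tab (r : Fin 3 → ℕ) (c : C → ℕ) : Finset (Fin 3 → Finset C) :=
  Finset.univ.filter (fun x => (∀ i, (x i).card = r i) ∧
    ∀ w, (Finset.univ.filter (fun i => w ∈ x i)).card = c w)

theorem card_filter_fin3 (p : Fin 3 → Prop) [DecidablePred p] :
    (univ.filter p).card = (if p 0 then 1 else 0) + (if p 1 then 1 else 0) + (if p 2 then 1 else 0) := by
  rw [Finset.card_filter, Fin.sum_univ_three]

variable (c : C → ℕ)

/-- The colouring of a table. -/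
def col (x : Fin 3 → Finset C) : ({w : C // c w = 1} → Fin 3) × ({w : C // c w = 2} → Fin 3) :=
  (fun w => if w.1 ∈ x 0 then 0 else if w.1 ∈ x 1 then 1 else 2,
   fun w => if w.1 ∉ x 0 then 0 else if w.1 ∉ x 1 then 1 else 2)

/-- The row determined by a view. -/
def rowOf (V : Finset {w : C // c w = 1} × Finset {w : C // c w = 2}) : Finset C :=
  univ.filter (fun w => c w = 3) ∪ V.1.map (Function.Embedding.subtype _) ∪
    (univ \ V.2).map (Function.Embedding.subtype _)

theorem mem_rowOf (V : Finset {w : C // c w = 1} × Finset {w : C // c w = 2}) (w : C) :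
    w ∈ rowOf c V ↔ c w = 3 ∨ (∃ h : c w = 1, (⟨w, h⟩ : {w : C // c w = 1}) ∈ V.1) ∨
      (∃ h : c w = 2, (⟨w, h⟩ : {w : C // c w = 2}) ∉ V.2) := by
  simp only [rowOf, mem_union, mem_filter, mem_univ, true_and, mem_map,
    Function.Embedding.coe_subtype, mem_sdiff, Subtype.exists, exists_and_right, exists_eq_right,
    or_assoc]

theorem card_rowOf (V : Finset {w : C // c w = 1} × Finset {w : C // c w = 2}) :
    (rowOf c V).card = (univ.filter (fun w => c w = 3)).card + V.1.card +
      (Fintype.card {w : C // c w = 2} - V.2.card) := by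
  unfold rowOf
  rw [card_union_of_disjoint, card_union_of_disjoint, card_map, card_map, card_sdiff_of_subset (subset_univ _),
    card_univ]
  · rw [disjoint_left]
    intro w hw hw'
    simp only [mem_filter, mem_univ, true_and] at hw
    simp only [mem_map, Function.Embedding.coe_subtype] at hw'
    obtain ⟨a, -, rfl⟩ := hw'
    have := a.2
    omega
  · rw [disjoint_left]
    intro w hw hw'
    simp only [mem_map, Function.Embedding.coe_subtype] at hw'
    obtain ⟨a, -, rfl⟩ := hw'
    have ha := a.2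
    simp only [mem_union, mem_filter, mem_univ, true_and, mem_map,
      Function.Embedding.coe_subtype] at hw
    rcases hw with hw | ⟨b, -, hb⟩
    · omega
    · have := b.2
      rw [hb] at this
      omega

/-- Membership in the row of the view of a colouring. -/
theorem mem_rowOf_cview (s : ({w : C // c w = 1} → Fin 3) × ({w : C // c w = 2} → Fin 3))
    (i : Fin 3) (w : C) :
    w ∈ rowOf c (cview i s) ↔ c w = 3 ∨ (∃ h : c w = 1, s.1 ⟨w, h⟩ = i) ∨
      (∃ h : c w = 2, s.2 ⟨w, h⟩ ≠ i) := by
  rw [mem_rowOf]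
  simp only [cview, mem_ccls]

/-- The colouring of the table of a colouring is the colouring. -/
theorem col_rowOf (s : ({w : C // c w = 1} → Fin 3) × ({w : C // c w = 2} → Fin 3)) :
    col c (fun i => rowOf c (cview i s)) = s := by
  refine Prod.ext ?_ ?_
  · funext w
    have h1 := w.2
    have hm : ∀ i, w.1 ∈ rowOf c (cview i s) ↔ s.1 w = i := by
      intro i
      rw [mem_rowOf_cview]
      constructor
      · rintro (h | ⟨h, h'⟩ | ⟨h, -⟩)
        · omega
        · exact h'
        · omega
      · intro h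
        exact Or.inr (Or.inl ⟨h1, h⟩)
    simp only [col, hm]
    generalize s.1 w = j
    fin_cases j <;> simp
  · funext w
    have h1 := w.2
    have hm : ∀ i, w.1 ∈ rowOf c (cview i s) ↔ s.2 w ≠ i := by
      intro i
      rw [mem_rowOf_cview]
      constructor
      · rintro (h | ⟨h, -⟩ | ⟨h, h'⟩)
        · omega
        · omega
        · exact h'
      · intro h
        exact Or.inr (Or.inr ⟨h1, h⟩)
    simp only [col, hm]
    generalize s.2 w = j
    fin_cases j <;> simp

variable {c}

/-- The table of the colouring of a table is the table. -/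
theorem rowOf_col {r : Fin 3 → ℕ} {x : Fin 3 → Finset C} (hx : x ∈ Tab r c) (i : Fin 3) :
    rowOf c (cview i (col c x)) = x i := by
  ext w
  rw [mem_rowOf_cview]
  have hw := ((mem_filter.mp hx).2).2 w
  rw [card_filter_fin3] at hw
  have e1 : ∀ h : c w = 1, (col c x).1 ⟨w, h⟩
      = (if w ∈ x 0 then (0 : Fin 3) else if w ∈ x 1 then 1 else 2) := fun _ => rfl
  have e2 : ∀ h : c w = 2, (col c x).2 ⟨w, h⟩
      = (if w ∉ x 0 then (0 : Fin 3) else if w ∉ x 1 then 1 else 2) := fun _ => rfl
  simp only [e1, e2, exists_prop]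
  generalize c w = k at hw ⊢
  subst hw
  by_cases h0 : w ∈ x 0 <;> by_cases h1 : w ∈ x 1 <;> by_cases h2 : w ∈ x 2 <;>
    fin_cases i <;> simp [h0, h1, h2]

/-- The colouring of a table is a state. -/
theorem col_mem_cstates {r : Fin 3 → ℕ} {x : Fin 3 → Finset C} (hx : x ∈ Tab r c) :
    col c x ∈ cstates (fun i => (r i : ℤ) - ((univ.filter (fun w => c w = 3)).card : ℤ)
      - (Fintype.card {w : C // c w = 2} : ℤ)) := by
  rw [cstates, mem_filter]
  refine ⟨mem_univ _, fun i => ?_⟩
  have h1 := ((mem_filter.mp hx).2).1 i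
  rw [← rowOf_col hx i, card_rowOf] at h1
  have h2 : (ccls (col c x).2 i).card ≤ Fintype.card {w : C // c w = 2} := card_le_univ _
  simp only [cview] at h1
  omega

/-- The table of a state is a table. -/
theorem rowOf_mem_Tab (hc : ∀ w, c w ≤ 3) {r : Fin 3 → ℕ}
    {s : ({w : C // c w = 1} → Fin 3) × ({w : C // c w = 2} → Fin 3)}
    (hs : s ∈ cstates (fun i => (r i : ℤ) - ((univ.filter (fun w => c w = 3)).card : ℤ)
      - (Fintype.card {w : C // c w = 2} : ℤ))) :
    (fun i => rowOf c (cview i s)) ∈ Tab r c := by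
  rw [Tab, mem_filter]
  refine ⟨mem_univ _, fun i => ?_, fun w => ?_⟩
  · have h1 := (mem_filter.mp hs).2 i
    have h2 : (ccls s.2 i).card ≤ Fintype.card {w : C // c w = 2} := card_le_univ _
    rw [card_rowOf]
    simp only [cview]
    beta_reduce at h1
    omega
  · rw [card_filter_fin3]
    rcases (by have := hc w; omega : c w = 0 ∨ c w = 1 ∨ c w = 2 ∨ c w = 3) with h | h | h | h
    · have hm : ∀ i, ¬ w ∈ rowOf c (cview i s) := by
        intro i
        rw [mem_rowOf_cview]
        rintro (h' | ⟨h', -⟩ | ⟨h', -⟩) <;> omega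
      simp only [hm, if_false, h]
    · have hm : ∀ i, w ∈ rowOf c (cview i s) ↔ s.1 ⟨w, h⟩ = i := by
        intro i
        rw [mem_rowOf_cview]
        constructor
        · rintro (h' | ⟨_, h'⟩ | ⟨h', -⟩)
          · omega
          · exact h'
          · omega
        · intro h'
          exact Or.inr (Or.inl ⟨h, h'⟩)
      simp only [hm, h]
      generalize s.1 ⟨w, h⟩ = j
      fin_cases j <;> simp
    · have hm : ∀ i, w ∈ rowOf c (cview i s) ↔ s.2 ⟨w, h⟩ ≠ i := by
        intro i
        rw [mem_rowOf_cview]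
        constructor
        · rintro (h' | ⟨h', -⟩ | ⟨_, h'⟩)
          · omega
          · omega
          · exact h'
        · intro h'
          exact Or.inr (Or.inr ⟨h, h'⟩)
      simp only [hm, h]
      generalize s.2 ⟨w, h⟩ = j
      fin_cases j <;> simp
    · have hm : ∀ i, w ∈ rowOf c (cview i s) := by
        intro i
        rw [mem_rowOf_cview]
        exact Or.inl h
      simp only [hm, if_true, h]

/-- A column of sum `> 3` makes `Tab` empty. -/
theorem Tab_eq_empty {r : Fin 3 → ℕ} {w : C} (hw : 3 < c w) : Tab r c = ∅ := by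
  rw [Finset.eq_empty_iff_forall_notMem]
  intro x hx
  have h := ((mem_filter.mp hx).2).2 w
  have h' : (univ.filter (fun i => w ∈ x i)).card ≤ 3 := by
    have := card_le_univ (univ.filter (fun i : Fin 3 => w ∈ x i))
    simpa using this
  omega

/-- Transport of sums from tables to colourings. -/
theorem sum_Tab_eq (hc : ∀ w, c w ≤ 3) (r : Fin 3 → ℕ) (g : Fin 3 → Finset C → ℝ)
    (Φ : (Fin 3 → ℝ) → ℝ) :
    ∑ x ∈ Tab r c, Φ (fun i => g i (x i)) =
      ∑ s ∈ cstates (fun i => (r i : ℤ) - ((univ.filter (fun w => c w = 3)).card : ℤ)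
        - (Fintype.card {w : C // c w = 2} : ℤ)), Φ (fun i => g i (rowOf c (cview i s))) := by
  refine Finset.sum_nbij' (col c) (fun s i => rowOf c (cview i s)) ?_ ?_ ?_ ?_ ?_
  · intro x hx
    exact col_mem_cstates hx
  · intro s hs
    exact rowOf_mem_Tab hc hs
  · intro x hx
    funext i
    exact rowOf_col hx i
  · intro s _
    exact col_rowOf c s
  · intro x hx
    congr 1
    funext i
    rw [rowOf_col hx i]

end Tables

/-- **(L3) for three-row tables** (WP-D3b), from (L3) for the colouring model. -/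
theorem L3_tables {C : Type u} [Fintype C] [DecidableEq C] (hL3 : L3Colouring.{u})
    (r : Fin 3 → ℕ) (c : C → ℕ) (g : Fin 3 → Finset C → ℝ)
    (h0 : ∀ i, ∑ x ∈ Tab r c, g i (x i) = 0) :
    ∑ x ∈ Tab r c, (∑ i, g i (x i)) ^ 2 ≤ 2 * ∑ x ∈ Tab r c, ∑ i, (g i (x i)) ^ 2 := by
  by_cases hc : ∀ w, c w ≤ 3
  · have e1 := sum_Tab_eq hc r g (fun v => (∑ i, v i) ^ 2)
    have e2 := sum_Tab_eq hc r g (fun v => ∑ i, (v i) ^ 2)
    have e0 : ∀ i, ∑ x ∈ Tab r c, g i (x i) = _ := fun i => sum_Tab_eq hc r g (fun v => v i)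
    simp only at e1 e2 e0
    rw [e1, e2]
    refine hL3 {w : C // c w = 1} {w : C // c w = 2} _ (fun i V => g i (rowOf c V)) ?_
    intro i
    rw [← e0 i, h0 i]
  · simp only [not_forall, not_le] at hc
    obtain ⟨w, hw⟩ := hc
    rw [Tab_eq_empty hw]
    simp

end Crest.Agent.Helper56.SW
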