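import Crest.Agent.Helper56.SW.Tables

/-!
# S0453, WP-D1t (second half): transport of (L3) for three-row tables along a bijection (helper56)

`L3_of_bij`: if `φ` maps a finite set `F` bijectively onto `Tab r c` and `h i` (on `F`) only
depends on row `i` of `φ`, with zero sum over `F`, then `∑_F (h 0 + h 1 + h 2)² ≤ 2 ∑_F ∑ i, (h i)²`.
This is the shape the graph side (a `~_T`-fibre `F` of realizations) consumes.
-/

set_option autoImplicit false

namespace Crest.Agent.Helper56.SW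

open Finset

universe u v

/-- (L3) transported to a finite set in bijection with `Tab r c`. -/
theorem L3_of_bij {C : Type u} [Fintype C] [DecidableEq C] (hL3 : L3Colouring.{u})
    {Ω : Type v} (F : Finset Ω) (φ : Ω → Fin 3 → Finset C) (r : Fin 3 → ℕ) (c : C → ℕ)
    (hmem : ∀ w ∈ F, φ w ∈ Tab r c)
    (hinj : ∀ w ∈ F, ∀ w' ∈ F, φ w = φ w' → w = w')
    (hsurj : ∀ x ∈ Tab r c, ∃ w ∈ F, φ w = x)
    (h : Fin 3 → Ω → ℝ)
    (hfac : ∀ i, ∀ w ∈ F, ∀ w' ∈ F, φ w i = φ w' i → h i w = h i w')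
    (h0 : ∀ i, ∑ w ∈ F, h i w = 0) :
    ∑ w ∈ F, (∑ i, h i w) ^ 2 ≤ 2 * ∑ w ∈ F, ∑ i, (h i w) ^ 2 := by
  classical
  let g : Fin 3 → Finset C → ℝ := fun i A =>
    if hA : ∃ w ∈ F, φ w i = A then h i hA.choose else 0
  have hg : ∀ i, ∀ w ∈ F, g i (φ w i) = h i w := by
    intro i w hw
    have hA : ∃ w' ∈ F, φ w' i = φ w i := ⟨w, hw, rfl⟩
    simp only [g, dif_pos hA]
    exact hfac i _ hA.choose_spec.1 _ hw hA.choose_spec.2
  have key : ∀ Φ : (Fin 3 → ℝ) → ℝ,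
      ∑ x ∈ Tab r c, Φ (fun i => g i (x i)) = ∑ w ∈ F, Φ (fun i => h i w) := by
    intro Φ
    symm
    refine Finset.sum_nbij φ hmem ?_ ?_ ?_
    · intro w hw w' hw' hww'
      exact hinj w hw w' hw' hww'
    · intro x hx
      obtain ⟨w, hw, rfl⟩ := hsurj x hx
      exact ⟨w, hw, rfl⟩
    · intro w hw
      congr 1
      funext i
      exact (hg i w hw).symm
  have e1 := key (fun v => (∑ i, v i) ^ 2)
  have e2 := key (fun v => ∑ i, (v i) ^ 2)
  have e0 : ∀ i, ∑ x ∈ Tab r c, g i (x i) = ∑ w ∈ F, h i w := fun i => key (fun v => v i)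
  simp only at e1 e2
  rw [← e1, ← e2]
  exact L3_tables hL3 r c g (fun i => by rw [e0 i, h0 i])

/-- The same with the image hypothesis as an equality of finsets. -/
theorem L3_of_image {C : Type u} [Fintype C] [DecidableEq C] (hL3 : L3Colouring.{u})
    {Ω : Type v} (F : Finset Ω) (φ : Ω → Fin 3 → Finset C) (r : Fin 3 → ℕ) (c : C → ℕ)
    (hinj : Set.InjOn φ F) (himg : F.image φ = Tab r c)
    (h : Fin 3 → Ω → ℝ)
    (hfac : ∀ i, ∀ w ∈ F, ∀ w' ∈ F, φ w i = φ w' i → h i w = h i w')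
    (h0 : ∀ i, ∑ w ∈ F, h i w = 0) :
    ∑ w ∈ F, (∑ i, h i w) ^ 2 ≤ 2 * ∑ w ∈ F, ∑ i, (h i w) ^ 2 := by
  refine L3_of_bij hL3 F φ r c ?_ ?_ ?_ h hfac h0
  · intro w hw
    rw [← himg]
    exact mem_image_of_mem φ hw
  · intro w hw w' hw' hww'
    exact hinj hw hw' hww'
  · intro x hx
    rw [← himg, mem_image] at hx
    exact hx

end Crest.Agent.Helper56.SW
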