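import Crest.Agent.Helper56.SW.D3Done
import Crest.Agent.Helper77.S0453.L3Final

/-!
# S0453: the three-body inequality (3B-Om) on realizations, hypothesis-free

`D3Done.lean` (graph side: helper68's fibre/margins + helper56's transport) with the colouring
inequality discharged by helper77's `l3Colouring56` (WP-D1, which uses helper5's `oneDim`).
(helper56)
-/

set_option autoImplicit false

namespace Crest.Agent.Helper56.SW

open Finset Crest.SwitchChain Crest.Agent.Helper65.Switch Crest.Agent.Helper68.SW3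

variable {n : ℕ}

/-- **(3B-Om), triple form** (the `h3` shape of helper26's `gap_pairs` with `κ U = offU U`). -/
theorem threeBodyOm_triple (d : Fin n → ℕ)
    (a b c : Fin n) (hab : a ≠ b) (hac : a ≠ c) (hbc : b ≠ c) (f : Finset (Edge n) → ℝ) :
    ∑ G ∈ realizations d, f G * (Qavg d {a, b} f G + Qavg d {a, c} f G + Qavg d {b, c} f G)
      ≤ 2 * ∑ G ∈ realizations d, f G ^ 2 + ∑ G ∈ realizations d, f G * Qavg d {a, b, c} f G :=
  threeBody_triple Crest.Agent.Helper77.S0453.l3Colouring56 d a b c hab hac hbc f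

/-- **(3B-Om)**, lead's form: for a 3-set `T`,
`∑ f · R_T f ≤ ∑_{U ⊆ T, |U| = 2} ∑ f · R_U f`. -/
theorem threeBodyOm_powerset (d : Fin n → ℕ)
    (T : Finset (Fin n)) (hT : T.card = 3) (f : Finset (Edge n) → ℝ) :
    ∑ G ∈ realizations d, f G * Rop d T f G
      ≤ ∑ U ∈ T.powersetCard 2, ∑ G ∈ realizations d, f G * Rop d U f G :=
  threeBody_powerset Crest.Agent.Helper77.S0453.l3Colouring56 d T hT f

/-- **(3B-Om), `Fin 3`-indexed form.** -/
theorem threeBodyOm (d : Fin n → ℕ) {t : Fin 3 → Fin n}
    (ht : Function.Injective t) (f : Finset (Edge n) → ℝ) :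
    ∑ G ∈ realizations d, f G * Rop d (Tset t) f G ≤
      ∑ i : Fin 3, ∑ G ∈ realizations d, f G * Rop d {t (i + 1), t (i + 2)} f G :=
  threeBody Crest.Agent.Helper77.S0453.l3Colouring56 d ht f

end Crest.Agent.Helper56.SW
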